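import Vale.Agent.P219.Main

namespace Vale.Agent.Results.P219.WarpedBalls

open Vale.Agent.P219

/-- Centred balls of rotationally symmetric metrics `dr^2 + f(r)^2 g_{S^{n-1}}` whose radial
curvature `- f'' / f` is at most `κ = - b^2` satisfy `area ≥ I_κ(vol)`, in every dimension `n ≥ 2`,
with equality exactly when `f = sn_b` on `[0, R]`, that is, when the ball is a model ball. -/
theorem result (n : ℕ) (hn : 2 ≤ n) (b : ℝ) (f : ℝ → ℝ) (hf : ContDiff ℝ 2 f) (R : ℝ) (hR : 0 < R)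
    (h0 : f 0 = 0) (h1 : deriv f 0 = 1) (hpos : ∀ r ∈ Set.Ioc 0 R, 0 < f r)
    (hcurv : ∀ r ∈ Set.Ioc 0 R, - deriv (deriv f) r / f r ≤ - b ^ 2) :
    profile n b (warpVol n f R) ≤ warpArea n f R ∧
      (profile n b (warpVol n f R) = warpArea n f R ↔ ∀ r ∈ Set.Icc 0 R, f r = sn b r) :=
  main hn hf hR h0 h1 hpos hcurv

end Vale.Agent.Results.P219.WarpedBalls
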